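import Mathlib

/-! # P208 (Lang-Plaut): definitions -/

namespace P208

variable {E : Type*} [NormedAddCommGroup E] [InnerProductSpace ℝ E]

/-- `X` (with the induced distance) is doubling with constant at most `N`: for every `x ∈ X` and
`r > 0` the open ball of `X` of radius `r` about `x` is covered by at most `N` closed balls of radius
`r / 2` with centres in `X`.  (This is implied by the doubling condition stated with open balls
only and also by the one stated with closed balls only.) -/
def DoublingWith (X : Set E) (N : ℕ) : Prop :=
  ∀ x ∈ X, ∀ r : ℝ, 0 < r → ∃ t : Finset E, (↑t ⊆ X) ∧ t.card ≤ N ∧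
    X ∩ Metric.ball x r ⊆ ⋃ y ∈ t, Metric.closedBall y (r / 2)

end P208
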