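import Vale.Agent.Lib.P208.Defs

/-! # P208 unit U5: a subset of a translate of a finite dimensional subspace embeds isometrically -/

namespace P208
variable {E : Type*} [NormedAddCommGroup E] [InnerProductSpace ℝ E]

open Classical in
/-- U5.  `f x = (stdOrthonormalBasis ℝ W).repr (x - x0)` when `x - x0 ∈ W` (and `0` otherwise). -/
theorem exists_isometry (W : Submodule ℝ E) [FiniteDimensional ℝ W] (x0 : E) (X : Set E)
    (h : ∀ x ∈ X, x - x0 ∈ W) :
    ∃ f : E → EuclideanSpace ℝ (Fin (Module.finrank ℝ W)),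
      ∀ x ∈ X, ∀ y ∈ X, dist (f x) (f y) = dist x y := by
  refine ⟨fun x => if hx : x - x0 ∈ W then (stdOrthonormalBasis ℝ W).repr ⟨x - x0, hx⟩ else 0, ?_⟩
  intro x hx y hy
  simp only [dif_pos (h x hx), dif_pos (h y hy)]
  rw [LinearIsometryEquiv.dist_map, Subtype.dist_eq]
  simp only [dist_sub_right]

end P208
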