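import Vale.Agent.Lib.P208.Defs

/-! # P208 unit U4: bounded ranks of finite subsets give a finite spanning subset -/

namespace P208

/-- U4.  Choose a finite `s ⊆ S` with `finrank (span s)` maximal (the values are bounded by `M`:
e.g. `Nat.findGreatest`, or strong induction on `M - finrank`).  For `v ∈ S`,
`span s ≤ span (insert v s)` and the finrank does not increase, so they are equal
(`Submodule.eq_of_le_of_finrank_le`, both are finite dimensional: `FiniteDimensional.span_finset`),
so `v ∈ span s`.  Hence `span S ≤ span s` (`Submodule.span_le`). -/
theorem exists_finset_span_eq {E : Type*} [AddCommGroup E] [Module ℝ E] [DecidableEq E] (S : Set E)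
    (M : ℕ)
    (h : ∀ s : Finset E, (↑s ⊆ S) → Module.finrank ℝ (Submodule.span ℝ (s : Set E)) ≤ M) :
    ∃ s : Finset E, ↑s ⊆ S ∧ Submodule.span ℝ (s : Set E) = Submodule.span ℝ S := by
  by_contra hno
  push Not at hno
  have key : ∀ k : ℕ, ∃ s : Finset E, ↑s ⊆ S ∧
      k ≤ Module.finrank ℝ (Submodule.span ℝ (s : Set E)) := by
    intro k
    induction k with
    | zero => exact ⟨∅, by simp, Nat.zero_le _⟩
    | succ k ih =>
      obtain ⟨s, hs, hk⟩ := ih
      have hle : Submodule.span ℝ (s : Set E) ≤ Submodule.span ℝ S := Submodule.span_mono hs
      have hex : ∃ v ∈ S, v ∉ Submodule.span ℝ (s : Set E) := by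
        by_contra hcon
        push Not at hcon
        exact hno s hs (le_antisymm hle (Submodule.span_le.mpr hcon))
      obtain ⟨v, hvS, hv⟩ := hex
      refine ⟨insert v s, ?_, ?_⟩
      · intro x hx
        rw [Finset.coe_insert] at hx
        rcases hx with rfl | hx
        · exact hvS
        · exact hs hx
      · have hlt : Submodule.span ℝ (s : Set E)
            < Submodule.span ℝ ((insert v s : Finset E) : Set E) := by
          refine lt_of_le_of_ne (Submodule.span_mono (by simp)) ?_
          intro heq
          apply hv
          rw [heq]
          exact Submodule.subset_span (by simp)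
        have hfd : FiniteDimensional ℝ (Submodule.span ℝ ((insert v s : Finset E) : Set E)) :=
          FiniteDimensional.span_finset ℝ _
        have h2 := Submodule.finrank_lt_finrank_of_lt hlt
        omega
  obtain ⟨s, hs, hk⟩ := key (M + 1)
  have h3 := h s hs
  omega

end P208
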