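import Vale.Agent.Lib.P208.Defs

/-! # P208 unit U1: a convex set that contains 0 and spans the space contains a ball -/

namespace P208

/-- U1.  `Convex.interior_nonempty_iff_affineSpan_eq_top`; `affineSpan ℝ S = ⊤` from `0 ∈ S` and
`span S = ⊤` (`AffineSubspace.affineSpan_eq_top_iff_vectorSpan_eq_top_of_nonempty`,
`vectorSpan_eq_span_vsub_set_right` with the point `0`); then `Metric.isOpen_iff` / `mem_interior`. -/
theorem exists_rel_ball {F : Type*} [NormedAddCommGroup F] [NormedSpace ℝ F]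
    [FiniteDimensional ℝ F] (S : Set F) (hS : Convex ℝ S) (h0 : (0 : F) ∈ S)
    (hspan : Submodule.span ℝ S = ⊤) : ∃ w0 : F, ∃ r : ℝ, 0 < r ∧ Metric.ball w0 r ⊆ S := by
  have haff : affineSpan ℝ S = ⊤ := by
    rw [AffineSubspace.affineSpan_eq_top_iff_vectorSpan_eq_top_of_nonempty ℝ F F ⟨0, h0⟩,
      vectorSpan_eq_span_vsub_set_right ℝ h0]
    simpa using hspan
  obtain ⟨w0, hw0⟩ := (hS.interior_nonempty_iff_affineSpan_eq_top).2 haff
  rw [mem_interior_iff_mem_nhds, Metric.mem_nhds_iff] at hw0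
  obtain ⟨r, hr, hb⟩ := hw0
  exact ⟨w0, r, hr, hb⟩

end P208
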