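import Vale.Agent.Lib.P208.Vol
import Vale.Agent.Lib.P208.RelBall

/-! # P208 unit U2: the doubling constant of a convex set bounds the dimension -/

namespace P208
variable {E : Type*} [NormedAddCommGroup E] [InnerProductSpace ℝ E]

/-- U2.  `W := span s` (finite dimensional), `S := {w : W | x0 + w ∈ X}` is convex, contains `0` and all
`⟨v, _⟩`, `v ∈ s`, which span `W` (so `span S = ⊤`).  `exists_rel_ball` gives `w0, r`.
Apply `hd` at `x0 + w0` with `r`: get `t`.  Let `t' := t.image (fun y => W.orthogonalProjection (y - x0))`.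
For `w ∈ ball w0 r`: `x0 + w ∈ X ∩ ball (x0 + w0) r`, so `‖x0 + w - y‖ ≤ r / 2` for some `y ∈ t`, and
`‖w - P (y - x0)‖ = ‖P (w - (y - x0))‖ ≤ ‖w - (y - x0)‖` (`Submodule.norm_orthogonalProjection_apply_le` /
`orthogonalProjection_norm_le`).  `two_pow_le_card` and `Finset.card_image_le`. -/
theorem two_pow_finrank_span_le (X : Set E) (N : ℕ) (hconv : Convex ℝ X) (hd : DoublingWith X N)
    (x0 : E) (hx0 : x0 ∈ X) (s : Finset E) (hs : ∀ v ∈ s, x0 + v ∈ X) :
    2 ^ Module.finrank ℝ (Submodule.span ℝ (s : Set E)) ≤ N := by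
  classical
  set W : Submodule ℝ E := Submodule.span ℝ (s : Set E) with hW
  have : FiniteDimensional ℝ W := FiniteDimensional.span_finset ℝ s
  let S : Set W := {w | x0 + (w : E) ∈ X}
  have hSconv : Convex ℝ S := by
    intro a ha b hb p q hp hq hpq
    show x0 + ((p • a + q • b : W) : E) ∈ X
    have h1 := hconv ha hb hp hq hpq
    have e : x0 + ((p • a + q • b : W) : E) = p • (x0 + (a : E)) + q • (x0 + (b : E)) := by
      have e0 : x0 = p • x0 + q • x0 := by rw [← add_smul, hpq, one_smul]
      push_cast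
      rw [smul_add, smul_add]
      nth_rewrite 1 [e0]
      abel
    rw [e]
    exact h1
  have h0 : (0 : W) ∈ S := by
    show x0 + ((0 : W) : E) ∈ X
    simpa using hx0
  have hspan : Submodule.span ℝ S = ⊤ := by
    rw [eq_top_iff]
    rintro ⟨w, hw⟩ -
    refine Submodule.span_induction
      (p := fun w hw => (⟨w, hw⟩ : W) ∈ Submodule.span ℝ S) ?_ ?_ ?_ ?_ hw
    · intro v hv
      exact Submodule.subset_span (hs v hv)
    · exact Submodule.zero_mem _
    · intro a b ha hb h1 h2
      exact Submodule.add_mem _ h1 h2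
    · intro c a ha h1
      exact Submodule.smul_mem _ c h1
  obtain ⟨w0, r, hr, hball⟩ := exists_rel_ball S hSconv h0 hspan
  obtain ⟨t, htX, htN, hcov⟩ := hd (x0 + w0) (hball (Metric.mem_ball_self hr)) r hr
  let t' : Finset W := t.image (fun y => W.orthogonalProjectionOnto (y - x0))
  have hcov' : Metric.ball w0 r ⊆ ⋃ z ∈ t', Metric.closedBall z (r / 2) := by
    intro w hw
    have h1 : x0 + (w : E) ∈ X ∩ Metric.ball (x0 + w0) r := by
      refine ⟨hball hw, ?_⟩
      rw [Metric.mem_ball, dist_add_left]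
      exact hw
    have h2 := hcov h1
    simp only [Set.mem_iUnion, Metric.mem_closedBall] at h2 ⊢
    obtain ⟨y, hy, hdist⟩ := h2
    refine ⟨W.orthogonalProjectionOnto (y - x0), Finset.mem_image_of_mem _ hy, ?_⟩
    rw [dist_eq_norm] at hdist ⊢
    have e : w - W.orthogonalProjectionOnto (y - x0) = W.orthogonalProjectionOnto ((w : E) - (y - x0)) := by
      rw [map_sub (W.orthogonalProjectionOnto) (w : E) (y - x0),
        Submodule.orthogonalProjectionOnto_mem_subspace_eq_self]
    rw [e]
    refine (Submodule.norm_orthogonalProjectionOnto_apply_le _ _).trans ?_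
    have e2 : (w : E) - (y - x0) = x0 + w - y := by abel
    rw [e2]
    exact hdist
  exact (two_pow_le_card w0 hr t' hcov').trans (Finset.card_image_le.trans htN)

end P208
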