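import Vale.Agent.Lib.P208.Key
import Vale.Agent.Lib.P208.FinDim
import Vale.Agent.Lib.P208.Embed

/-! # P208: convex doubling subsets of a Hilbert space -/

namespace P208
variable {E : Type*} [NormedAddCommGroup E] [InnerProductSpace ℝ E]

theorem convex_doubling (X : Set E) (N : ℕ) (hne : X.Nonempty) (hconv : Convex ℝ X)
    (hd : DoublingWith X N) :
    ∃ k : ℕ, 2 ^ k ≤ N ∧ ∃ f : E → EuclideanSpace ℝ (Fin k),
      ∀ x ∈ X, ∀ y ∈ X, dist (f x) (f y) = dist x y := by
  classical
  obtain ⟨x0, hx0⟩ := hne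
  set S : Set E := (fun x => x - x0) '' X with hS
  have hkey : ∀ s : Finset E, (↑s ⊆ S) →
      2 ^ Module.finrank ℝ (Submodule.span ℝ (s : Set E)) ≤ N := by
    intro s hs
    apply two_pow_finrank_span_le X N hconv hd x0 hx0 s
    intro v hv
    obtain ⟨x, hx, rfl⟩ := hs hv
    simpa using hx
  have hb : ∀ s : Finset E, (↑s ⊆ S) →
      Module.finrank ℝ (Submodule.span ℝ (s : Set E)) ≤ N := by
    intro s hs
    exact (Nat.lt_two_pow_self).le.trans (hkey s hs)
  obtain ⟨s, hsS, hspan⟩ := exists_finset_span_eq S N hb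
  have hfd : FiniteDimensional ℝ (Submodule.span ℝ (s : Set E)) :=
    FiniteDimensional.span_finset ℝ s
  refine ⟨Module.finrank ℝ (Submodule.span ℝ (s : Set E)), hkey s hsS, ?_⟩
  apply exists_isometry (Submodule.span ℝ (s : Set E)) x0 X
  intro x hx
  rw [hspan]
  exact Submodule.subset_span ⟨x, hx, rfl⟩

end P208
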