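import Vale.Agent.Lib.P208.Defs

/-! # P208 unit U3: volume count -/

namespace P208
open MeasureTheory

/-- U3.  Put `letI : MeasurableSpace F := borel F; haveI : BorelSpace F := ⟨rfl⟩`, `μ := volume`
(or `Measure.addHaar`).  `Measure.addHaar_ball`, `Measure.addHaar_closedBall`:
`μ (ball w0 r) = ofReal (r ^ d) * μ (ball 0 1)`, `μ (closedBall z (r/2)) = ofReal ((r/2) ^ d) * μ (ball 0 1)`,
`measure_biUnion_finset_le`; `0 < μ (ball 0 1) < ⊤`; so `r ^ d ≤ card * (r/2) ^ d`. -/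
theorem two_pow_le_card {F : Type*} [NormedAddCommGroup F] [InnerProductSpace ℝ F]
    [FiniteDimensional ℝ F] (w0 : F) {r : ℝ} (hr : 0 < r) (t : Finset F)
    (h : Metric.ball w0 r ⊆ ⋃ z ∈ t, Metric.closedBall z (r / 2)) :
    2 ^ (Module.finrank ℝ F) ≤ t.card := by
  classical
  letI : MeasurableSpace F := borel F
  haveI : BorelSpace F := ⟨rfl⟩
  have h1 : (volume : Measure F) (Metric.ball w0 r)
      = ENNReal.ofReal (r ^ Module.finrank ℝ F) * (volume : Measure F) (Metric.ball 0 1) :=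
    Measure.addHaar_ball_of_pos volume w0 hr
  have h2 : ∀ z, (volume : Measure F) (Metric.closedBall z (r / 2))
      = ENNReal.ofReal ((r / 2) ^ Module.finrank ℝ F) * (volume : Measure F) (Metric.ball 0 1) :=
    fun z => Measure.addHaar_closedBall volume z (by positivity)
  have h3 : (volume : Measure F) (Metric.ball w0 r)
      ≤ ∑ z ∈ t, (volume : Measure F) (Metric.closedBall z (r / 2)) :=
    (measure_mono h).trans (measure_biUnion_finset_le t _)
  have hpos : 0 < (volume : Measure F) (Metric.ball (0 : F) 1) :=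
    Metric.measure_ball_pos volume 0 one_pos
  have hfin : (volume : Measure F) (Metric.ball (0 : F) 1) ≠ ⊤ := measure_ball_lt_top.ne
  obtain ⟨m, hmpos, hM⟩ : ∃ m : ℝ, 0 < m ∧
      (volume : Measure F) (Metric.ball (0 : F) 1) = ENNReal.ofReal m :=
    ⟨_, ENNReal.toReal_pos hpos.ne' hfin, (ENNReal.ofReal_toReal hfin).symm⟩
  generalize Module.finrank ℝ F = d at *
  simp only [h1, h2, Finset.sum_const, nsmul_eq_mul] at h3
  have hr1 : (0 : ℝ) ≤ r ^ d := by positivity
  have hr2 : (0 : ℝ) ≤ (r / 2) ^ d := by positivity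
  have hc : (0 : ℝ) ≤ (t.card : ℝ) := Nat.cast_nonneg _
  rw [hM, ← ENNReal.ofReal_natCast, ← ENNReal.ofReal_mul hr1, ← ENNReal.ofReal_mul hr2,
    ← ENNReal.ofReal_mul hc,
    ENNReal.ofReal_le_ofReal_iff (mul_nonneg hc (mul_nonneg hr2 hmpos.le))] at h3
  have h4 : r ^ d ≤ (t.card : ℝ) * (r / 2) ^ d := by
    have h5 : r ^ d * m ≤ ((t.card : ℝ) * (r / 2) ^ d) * m := by linarith
    exact le_of_mul_le_mul_right h5 hmpos
  rw [div_pow] at h4
  have h6 : (0 : ℝ) < r ^ d := by positivity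
  have h7 : (0 : ℝ) < 2 ^ d := by positivity
  have h8 : (2 : ℝ) ^ d ≤ t.card := by
    have h10 : (t.card : ℝ) * (r ^ d / 2 ^ d) * 2 ^ d = (t.card : ℝ) * r ^ d := by
      rw [mul_assoc, div_mul_cancel₀ _ h7.ne']
    have h9 : r ^ d * 2 ^ d ≤ (t.card : ℝ) * r ^ d := by
      calc r ^ d * 2 ^ d ≤ (t.card : ℝ) * (r ^ d / 2 ^ d) * 2 ^ d :=
            mul_le_mul_of_nonneg_right h4 h7.le
        _ = _ := h10
    have h11 : 2 ^ d * r ^ d ≤ (t.card : ℝ) * r ^ d := by linarith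
    exact le_of_mul_le_mul_right h11 h6
  exact_mod_cast h8

end P208
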